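/-
helper71 — row 9 (S0010), abstract algebra for the "line lemma" (LL) of helper99's plan
(notes/s0010/PLAN.md).  Mathlib only.

* `eig_of_powerBasis` : (Eig) — eigenvectors of the Euler operator `t d/dt` on `C(t)`.
-/
import Mathlib

set_option autoImplicit false

namespace Crest.Agent.Helper71.MK

open Finset

variable {L : Type*} [Field L]

/-- **(Eig).** Let `C ≤ E` be subfields of `L` (char `p`), `D` a derivation vanishing on `C`,
`t` with `D t ≠ 0` such that `1, t, …, t^(p-1)` is a `C`-basis of `E`.  If `w ∈ E` is nonzero and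
`D w * t = κ * w * D t` with `κ ∈ C`, then `κ = m` for some `m < p` and `w ∈ C * t ^ m`. -/
theorem eig_of_powerBasis (p : ℕ) [Fact p.Prime] [CharP L p] (C E : Subfield L)
    (D : Derivation ℤ L L) (hDC : ∀ a ∈ C, D a = 0)
    (t : L) (hDt : D t ≠ 0)
    (hspan : ∀ w ∈ E, ∃ a : Fin p → L, (∀ i, a i ∈ C) ∧ w = ∑ i, a i * t ^ (i : ℕ))
    (hindep : ∀ a : Fin p → L, (∀ i, a i ∈ C) → ∑ i, a i * t ^ (i : ℕ) = 0 → ∀ i, a i = 0)
    (w : L) (hw : w ∈ E) (hw0 : w ≠ 0) (κ : L) (hκ : κ ∈ C)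
    (h : D w * t = κ * w * D t) :
    ∃ m : ℕ, m < p ∧ κ = (m : L) ∧ ∃ e ∈ C, w = e * t ^ m := by
  obtain ⟨a, haC, rfl⟩ := hspan w hw
  -- derivative of a monomial
  have hmono : ∀ i : Fin p, D (a i * t ^ (i : ℕ)) * t = ((i : ℕ) : L) * (a i * t ^ (i : ℕ)) * D t := by
    intro i
    rw [Derivation.leibniz, hDC _ (haC i), Derivation.leibniz_pow]
    simp only [smul_eq_mul, mul_zero, add_zero, nsmul_eq_mul]
    rcases Nat.eq_zero_or_pos (i : ℕ) with h0 | hpos
    · simp [h0]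
    · have : t ^ (i : ℕ) = t ^ ((i : ℕ) - 1) * t := by
        rw [← pow_succ, Nat.sub_add_cancel hpos]
      rw [this]; ring
  have hDw : D (∑ i, a i * t ^ (i : ℕ)) * t = (∑ i : Fin p, ((i : ℕ) : L) * (a i * t ^ (i : ℕ))) * D t := by
    rw [map_sum, Finset.sum_mul, Finset.sum_mul]
    exact Finset.sum_congr rfl fun i _ => hmono i
  -- the coefficients `(i - κ) a_i` vanish
  have hb : ∑ i : Fin p, ((((i : ℕ) : L) - κ) * a i) * t ^ (i : ℕ) = 0 := by
    have h1 : (∑ i : Fin p, ((((i : ℕ) : L) - κ) * a i) * t ^ (i : ℕ)) * D t = 0 := by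
      have : ∑ i : Fin p, ((((i : ℕ) : L) - κ) * a i) * t ^ (i : ℕ)
          = (∑ i : Fin p, ((i : ℕ) : L) * (a i * t ^ (i : ℕ))) - κ * ∑ i, a i * t ^ (i : ℕ) := by
        rw [Finset.mul_sum, ← Finset.sum_sub_distrib]
        exact Finset.sum_congr rfl fun i _ => by ring
      rw [this, sub_mul, ← hDw, h]; ring
    exact (mul_eq_zero.mp h1).resolve_right hDt
  have hb0 := hindep (fun i => (((i : ℕ) : L) - κ) * a i)
    (fun i => C.mul_mem (C.sub_mem (natCast_mem C _) hκ) (haC i)) hb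
  -- some coefficient is nonzero
  have hex : ∃ i, a i ≠ 0 := by
    by_contra hcon
    have hcon' : ∀ i, a i = 0 := fun i => by
      by_contra hi
      exact hcon ⟨i, hi⟩
    exact hw0 (Finset.sum_eq_zero fun i _ => by rw [hcon' i, zero_mul])
  obtain ⟨i0, hi0⟩ := hex
  have hκi : κ = ((i0 : ℕ) : L) := by
    have := hb0 i0
    rcases mul_eq_zero.mp this with h1 | h1
    · exact (sub_eq_zero.mp h1).symm
    · exact absurd h1 hi0
  refine ⟨i0, i0.2, hκi, a i0, haC i0, ?_⟩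
  refine Finset.sum_eq_single i0 (fun j _ hj => ?_) (fun h => absurd (Finset.mem_univ _) h)
  have hj0 := hb0 j
  rcases mul_eq_zero.mp hj0 with h1 | h1
  · exfalso
    rw [hκi, sub_eq_zero] at h1
    have h2 : ((j : ℕ) : L) = ((i0 : ℕ) : L) := h1
    rw [CharP.natCast_eq_natCast L p] at h2
    have h3 : (j : ℕ) = (i0 : ℕ) := by
      have := Nat.ModEq.eq_of_lt_of_lt h2 j.2 i0.2
      exact this
    exact hj (Fin.ext h3)
  · rw [h1, zero_mul]

end Crest.Agent.Helper71.MK
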