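/-
helper71 — row 9 (S0010): the algebraic core of the LINE LEMMA (LL) of helper99's plan
(notes/s0010/PLAN.md), in abstract form.  Mathlib only.

Setting: a field `L` of characteristic `p`, subfields `C ≤ E₁, E₂ ≤ M` (in the application
`C = L^p`, `E₁ = L^p(x)`, `E₂ = L^p(y)`, `M = L^p(x,y)`), two commuting derivations `D₁, D₂`
(`D₁ = ∂/∂x`, `D₂ = ∂/∂y`), families `φ c ∈ E₁ \ C`, `γ c ∈ E₂ \ C` indexed by an infinite type,
and `h ∈ M`, `h ≠ 0`, satisfying the Jacobian relation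
`D₁ φ_c * D₂ γ_c * h = φ_c * D₂ γ_c * D₁ h + D₁ φ_c * γ_c * D₂ h`.
Conclusion: `φ_c ∈ C (P + lam c)^m`, `γ_c ∈ C (Q - lam c)^m`, `h ∈ C (P + Q)^m`.
-/
import Mathlib

set_option autoImplicit false

namespace Crest.Agent.Helper71.MK

variable {L : Type*} [Field L]

/-- The Jacobian relation in polynomial form, from `D₁ u * D₂ v = D₂ u * D₁ v` for
`u = γ / φ`, `v = h / φ` when `D₂ φ = 0` and `D₁ γ = 0`. -/
theorem jacobian_poly (D₁ D₂ : Derivation ℤ L L) (φ γ h : L) (hφ0 : φ ≠ 0)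
    (hφ2 : D₂ φ = 0) (hγ1 : D₁ γ = 0)
    (hJ : D₁ (γ / φ) * D₂ (h / φ) = D₂ (γ / φ) * D₁ (h / φ)) :
    D₁ φ * D₂ γ * h = φ * D₂ γ * D₁ h + D₁ φ * γ * D₂ h := by
  rw [Derivation.leibniz_div, Derivation.leibniz_div, Derivation.leibniz_div,
    Derivation.leibniz_div, hφ2, hγ1] at hJ
  simp only [smul_eq_mul, mul_zero, sub_zero, zero_sub] at hJ
  field_simp at hJ
  linear_combination hJ


/-- **(LL), algebraic core** (the derivations need to commute only at `h`). -/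
theorem line_lemma_core' (p : ℕ) [Fact p.Prime] [CharP L p]
    (C E₁ E₂ M : Subfield L) (hC1 : C ≤ E₁) (hC2 : C ≤ E₂) (h1M : E₁ ≤ M) (h2M : E₂ ≤ M)
    (D₁ D₂ : Derivation ℤ L L)
    (hE1 : ∀ a ∈ E₁, D₂ a = 0 ∧ D₁ a ∈ E₁) (hE2 : ∀ a ∈ E₂, D₁ a = 0 ∧ D₂ a ∈ E₂)
    (hk1 : ∀ a ∈ E₁, D₁ a = 0 → a ∈ C) (hk2 : ∀ a ∈ E₂, D₂ a = 0 → a ∈ C)
    (hM : ∀ a ∈ M, D₁ a = 0 → D₂ a = 0 → a ∈ C)
    (eig1 : ∀ t ∈ E₁, ∀ w ∈ E₁, D₁ t ≠ 0 → w ≠ 0 → ∀ κ ∈ C, D₁ w * t = κ * w * D₁ t →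
      ∃ m : ℕ, m < p ∧ κ = (m : L) ∧ ∃ e ∈ C, w = e * t ^ m)
    (eig2 : ∀ t ∈ E₂, ∀ w ∈ E₂, D₂ t ≠ 0 → w ≠ 0 → ∀ κ ∈ C, D₂ w * t = κ * w * D₂ t →
      ∃ m : ℕ, m < p ∧ κ = (m : L) ∧ ∃ e ∈ C, w = e * t ^ m)
    {ι : Type*} [Infinite ι] (c0 c1 : ι) (hc : c0 ≠ c1)
    (φ γ : ι → L) (h : L) (hcomm : D₁ (D₂ h) = D₂ (D₁ h))
    (hφ : ∀ c, φ c ∈ E₁ ∧ φ c ∉ C) (hγ : ∀ c, γ c ∈ E₂ ∧ γ c ∉ C) (hhM : h ∈ M) (hh0 : h ≠ 0)
    (hφinj : ∀ c c', φ c / φ c' ∈ C → c = c') (hγinj : ∀ c c', γ c / γ c' ∈ C → c = c')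
    (hJ : ∀ c, D₁ (φ c) * D₂ (γ c) * h = φ c * D₂ (γ c) * D₁ h + D₁ (φ c) * γ c * D₂ h) :
    ∃ m : ℕ, 0 < m ∧ m < p ∧ ∃ P ∈ E₁, ∃ Q ∈ E₂, P ∉ C ∧ Q ∉ C ∧
      ∃ lam : ι → L, (∀ c, lam c ∈ C) ∧ lam c0 = 0 ∧ lam c1 = 1 ∧ Function.Injective lam ∧
        (∀ c, ∃ e ∈ C, φ c = e * (P + lam c) ^ m) ∧
        (∀ c, ∃ e ∈ C, γ c = e * (Q - lam c) ^ m) ∧
        ∃ e ∈ C, h = e * (P + Q) ^ m := by
  -- basic facts
  have hφ0 : ∀ c, φ c ≠ 0 := fun c h0 => (hφ c).2 (h0 ▸ C.zero_mem)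
  have hγ0 : ∀ c, γ c ≠ 0 := fun c h0 => (hγ c).2 (h0 ▸ C.zero_mem)
  have ha0 : ∀ c, D₁ (φ c) ≠ 0 := fun c h0 => (hφ c).2 (hk1 _ (hφ c).1 h0)
  have hb0 : ∀ c, D₂ (γ c) ≠ 0 := fun c h0 => (hγ c).2 (hk2 _ (hγ c).1 h0)
  have haE : ∀ c, D₁ (φ c) ∈ E₁ := fun c => (hE1 _ (hφ c).1).2
  have hbE : ∀ c, D₂ (γ c) ∈ E₂ := fun c => (hE2 _ (hγ c).1).2
  have hD1C : ∀ x ∈ C, D₁ x = 0 := fun x hx => (hE2 x (hC2 hx)).1
  have hD2C : ∀ x ∈ C, D₂ x = 0 := fun x hx => (hE1 x (hC1 hx)).1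
  have hinter : ∀ x, x ∈ E₁ → x ∈ E₂ → x ∈ C := fun x h1 h2 => hk1 x h1 (hE2 x h2).1
  obtain ⟨X, hX⟩ : ∃ X : L, X = D₁ h / h := ⟨_, rfl⟩
  obtain ⟨Y, hY⟩ : ∃ Y : L, Y = D₂ h / h := ⟨_, rfl⟩
  obtain ⟨F, hF⟩ : ∃ F : ι → L, ∀ c, F c = φ c / D₁ (φ c) := ⟨_, fun _ => rfl⟩
  obtain ⟨G, hG⟩ : ∃ G : ι → L, ∀ c, G c = γ c / D₂ (γ c) := ⟨_, fun _ => rfl⟩
  have hFE : ∀ c, F c ∈ E₁ := fun c => by rw [hF]; exact E₁.div_mem (hφ c).1 (haE c)
  have hGE : ∀ c, G c ∈ E₂ := fun c => by rw [hG]; exact E₂.div_mem (hγ c).1 (hbE c)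
  have hF0 : ∀ c, F c ≠ 0 := fun c => by rw [hF]; exact div_ne_zero (hφ0 c) (ha0 c)
  have hG0 : ∀ c, G c ≠ 0 := fun c => by rw [hG]; exact div_ne_zero (hγ0 c) (hb0 c)
  have hφF : ∀ c, φ c = F c * D₁ (φ c) := fun c => by rw [hF]; field_simp [ha0 c]
  have hγG : ∀ c, γ c = G c * D₂ (γ c) := fun c => by rw [hG]; field_simp [hb0 c]
  -- (**)
  have hstar : ∀ c, F c * X + G c * Y = 1 := by
    intro c
    have hJc := hJ c
    have h1 := ha0 c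
    have h2 := hb0 c
    rw [hF, hG, hX, hY]
    field_simp
    linear_combination -hJc
  -- injectivity of F and G
  have hFinj : ∀ c c', F c = F c' → c = c' := by
    intro c c' hEq
    apply hφinj
    apply hk1 _ (E₁.div_mem (hφ c).1 (hφ c').1)
    rw [Derivation.leibniz_div]
    have h1 := ha0 c
    have h2 := ha0 c'
    rw [hF, hF] at hEq
    field_simp at hEq
    have : φ c' * D₁ (φ c) - φ c * D₁ (φ c') = 0 := by linear_combination -hEq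
    simp only [smul_eq_mul, this, mul_zero]
  have hGinj : ∀ c c', G c = G c' → c = c' := by
    intro c c' hEq
    apply hγinj
    apply hk2 _ (E₂.div_mem (hγ c).1 (hγ c').1)
    rw [Derivation.leibniz_div]
    have h1 := hb0 c
    have h2 := hb0 c'
    rw [hG, hG] at hEq
    field_simp at hEq
    have : γ c' * D₂ (γ c) - γ c * D₂ (γ c') = 0 := by linear_combination -hEq
    simp only [smul_eq_mul, this, mul_zero]
  -- X, Y ≠ 0
  have hX0 : X ≠ 0 := by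
    intro hX0
    have e0 := hstar c0
    have e1 := hstar c1
    rw [hX0, mul_zero, zero_add] at e0 e1
    have hY0 : Y ≠ 0 := by
      rintro rfl
      simp at e0
    exact hc (hGinj _ _ (mul_right_cancel₀ hY0 (e0.trans e1.symm)))
  have hY0 : Y ≠ 0 := by
    intro hY0
    have e0 := hstar c0
    have e1 := hstar c1
    rw [hY0, mul_zero, add_zero] at e0 e1
    exact hc (hFinj _ _ (mul_right_cancel₀ hX0 (e0.trans e1.symm)))
  -- A, B
  obtain ⟨A, hA⟩ : ∃ A : L, A = F c1 - F c0 := ⟨_, rfl⟩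
  obtain ⟨B, hB⟩ : ∃ B : L, B = G c0 - G c1 := ⟨_, rfl⟩
  have hA0 : A ≠ 0 := by
    rw [hA]
    exact fun h0 => hc (hFinj _ _ (sub_eq_zero.mp h0)).symm
  have hB0 : B ≠ 0 := by
    rw [hB]
    exact fun h0 => hc (hGinj _ _ (sub_eq_zero.mp h0))
  have hAE : A ∈ E₁ := by rw [hA]; exact E₁.sub_mem (hFE c1) (hFE c0)
  have hBE : B ∈ E₂ := by rw [hB]; exact E₂.sub_mem (hGE c0) (hGE c1)
  have hAXBY : A * X = B * Y := by
    rw [hA, hB]
    linear_combination hstar c1 - hstar c0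
  -- lam
  obtain ⟨lam, hlam⟩ : ∃ lam : ι → L, ∀ c, lam c = (F c - F c0) / A := ⟨_, fun _ => rfl⟩
  have hlamA : ∀ c, lam c * A = F c - F c0 := fun c => by rw [hlam]; field_simp
  have hlamB : ∀ c, lam c * B = G c0 - G c := by
    intro c
    have e : (lam c * B - (G c0 - G c)) * Y = 0 := by
      have e1 := hstar c
      have e0 := hstar c0
      have e2 := hlamA c
      linear_combination X * e2 + e1 - e0 - lam c * hAXBY
    have := (mul_eq_zero.mp e).resolve_right hY0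
    exact sub_eq_zero.mp this
  have hlamE1 : ∀ c, lam c ∈ E₁ := fun c => by
    rw [hlam]; exact E₁.div_mem (E₁.sub_mem (hFE c) (hFE c0)) hAE
  have hlamE2 : ∀ c, lam c ∈ E₂ := fun c => by
    have : lam c = (G c0 - G c) / B := by
      rw [eq_div_iff hB0]; exact hlamB c
    rw [this]; exact E₂.div_mem (E₂.sub_mem (hGE c0) (hGE c)) hBE
  have hlamC : ∀ c, lam c ∈ C := fun c => hinter _ (hlamE1 c) (hlamE2 c)
  have hlam0 : lam c0 = 0 := by rw [hlam, sub_self, zero_div]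
  have hlam1 : lam c1 = 1 := by rw [hlam, ← hA, div_self hA0]
  have hlaminj : Function.Injective lam := by
    intro c c' hEq
    apply hFinj
    have e1 := hlamA c
    have e2 := hlamA c'
    rw [hEq] at e1
    linear_combination e2 - e1
  -- P, Q
  obtain ⟨P, hP⟩ : ∃ P : L, P = F c0 / A := ⟨_, rfl⟩
  obtain ⟨Q, hQ⟩ : ∃ Q : L, Q = G c0 / B := ⟨_, rfl⟩
  have hPE : P ∈ E₁ := by rw [hP]; exact E₁.div_mem (hFE c0) hAE
  have hQE : Q ∈ E₂ := by rw [hQ]; exact E₂.div_mem (hGE c0) hBE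
  have hPA : P * A = F c0 := by rw [hP]; field_simp
  have hQB : Q * B = G c0 := by rw [hQ]; field_simp
  have hFP : ∀ c, F c = A * (P + lam c) := fun c => by
    linear_combination -hPA - hlamA c
  have hGQ : ∀ c, G c = B * (Q - lam c) := fun c => by
    linear_combination -hQB + hlamB c
  have hS1 : A * X * (P + Q) = 1 := by
    have e0 := hstar c0
    linear_combination e0 + X * hPA + Y * hQB + Q * hAXBY
  have hS2 : B * Y * (P + Q) = 1 := by rw [← hAXBY]; exact hS1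
  have hS0 : P + Q ≠ 0 := by
    intro h0
    rw [h0, mul_zero] at hS1
    exact zero_ne_one hS1
  have hPl0 : ∀ c, P + lam c ≠ 0 := fun c h0 => hF0 c (by rw [hFP, h0, mul_zero])
  have hQl0 : ∀ c, Q - lam c ≠ 0 := fun c h0 => hG0 c (by rw [hGQ, h0, mul_zero])
  -- D₂ A = 0, D₂ P = 0, D₁ B = 0, D₁ Q = 0
  have hD2A : D₂ A = 0 := (hE1 A hAE).1
  have hD2P : D₂ P = 0 := (hE1 P hPE).1
  have hD1B : D₁ B = 0 := (hE2 B hBE).1
  have hD1Q : D₁ Q = 0 := (hE2 Q hQE).1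
  -- integrability
  have hint : D₂ X = D₁ Y := by
    rw [hX, hY, Derivation.leibniz_div, Derivation.leibniz_div, hcomm]
    simp only [smul_eq_mul]
    ring
  have e1 : X * (A * D₂ Q) + A * (P + Q) * D₂ X = 0 := by
    have := congrArg D₂ hS1
    rw [Derivation.leibniz, Derivation.leibniz, map_add, hD2A, hD2P,
      Derivation.map_one_eq_zero] at this
    simp only [smul_eq_mul, mul_zero, zero_add, add_zero] at this
    linear_combination this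
  have e2 : Y * (B * D₁ P) + B * (P + Q) * D₁ Y = 0 := by
    have := congrArg D₁ hS2
    rw [Derivation.leibniz, Derivation.leibniz, map_add, hD1B, hD1Q,
      Derivation.map_one_eq_zero] at this
    simp only [smul_eq_mul, mul_zero, add_zero] at this
    linear_combination this
  have hκ : A * D₁ P = B * D₂ Q := by
    -- X * D₂ Q = Y * D₁ P, then multiply by A * B * (P+Q)
    have e3 : X * D₂ Q = Y * D₁ P := by
      have ea : A * (X * D₂ Q + (P + Q) * D₂ X) = 0 := by linear_combination e1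
      have eb : B * (Y * D₁ P + (P + Q) * D₁ Y) = 0 := by linear_combination e2
      have ea' := (mul_eq_zero.mp ea).resolve_left hA0
      have eb' := (mul_eq_zero.mp eb).resolve_left hB0
      rw [hint] at ea'
      linear_combination ea' - eb'
    have : (A * X * (P + Q)) * (B * D₂ Q) = (B * Y * (P + Q)) * (A * D₁ P) := by
      linear_combination A * B * (P + Q) * e3
    rw [hS1, hS2, one_mul, one_mul] at this
    exact this.symm
  obtain ⟨κ, hκdef⟩ : ∃ κ : L, κ = A * D₁ P := ⟨_, rfl⟩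
  have hκ2 : κ = B * D₂ Q := hκdef.trans hκ
  have hκC : κ ∈ C := by
    apply hinter
    · rw [hκdef]; exact E₁.mul_mem hAE (hE1 P hPE).2
    · rw [hκ2]; exact E₂.mul_mem hBE (hE2 Q hQE).2
  -- φ and γ in terms of P, Q
  have hφP : ∀ c, φ c = D₁ (φ c) * A * (P + lam c) := fun c => by
    have := hφF c
    rw [hFP] at this
    linear_combination this
  have hγQ : ∀ c, γ c = D₂ (γ c) * B * (Q - lam c) := fun c => by
    have := hγG c
    rw [hGQ] at this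
    linear_combination this
  have hP0 : P ≠ 0 := by
    have := hPl0 c0
    rwa [hlam0, add_zero] at this
  -- κ ≠ 0
  have hκ0 : κ ≠ 0 := by
    intro hκz
    have hD1P : D₁ P = 0 := by
      rw [hκdef] at hκz
      exact (mul_eq_zero.mp hκz).resolve_left hA0
    have hPC : P ∈ C := hk1 P hPE hD1P
    have hex : ∀ c, ∃ m : ℕ, m < p ∧ P / (P + lam c) = (m : L) := by
      intro c
      have hkc : P / (P + lam c) ∈ C := C.div_mem hPC (C.add_mem hPC (hlamC c))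
      have hrel : D₁ (φ c) * φ c0 = P / (P + lam c) * φ c * D₁ (φ c0) := by
        have e1 := hφP c
        have e0 := hφP c0
        rw [hlam0, add_zero] at e0
        have hne := hPl0 c
        rw [div_mul_eq_mul_div, div_mul_eq_mul_div, eq_div_iff hne]
        calc D₁ (φ c) * φ c0 * (P + lam c)
            = D₁ (φ c) * (D₁ (φ c0) * A * P) * (P + lam c) := by rw [← e0]
          _ = P * (D₁ (φ c) * A * (P + lam c)) * D₁ (φ c0) := by ring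
          _ = P * φ c * D₁ (φ c0) := by rw [← e1]
      obtain ⟨m, hm, hmk, -⟩ := eig1 (φ c0) (hφ c0).1 (φ c) (hφ c).1 (ha0 c0) (hφ0 c) _ hkc hrel
      exact ⟨m, hm, hmk⟩
    choose mf hmf hmfeq using hex
    obtain ⟨c, c', hne, heq⟩ :=
      Finite.exists_ne_map_eq_of_infinite (fun c => (⟨mf c, hmf c⟩ : Fin p))
    have heq' : mf c = mf c' := congrArg Fin.val heq
    have h1 : P / (P + lam c) = P / (P + lam c') := by rw [hmfeq c, hmfeq c', heq']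
    have h2 : P + lam c = P + lam c' := by
      have hn1 := hPl0 c
      have hn2 := hPl0 c'
      rw [div_eq_div_iff hn1 hn2] at h1
      exact (mul_left_cancel₀ hP0 h1).symm
    exact hne (hlaminj (add_left_cancel h2))
  have hD1P0 : D₁ P ≠ 0 := by
    intro h0
    rw [hκdef, h0, mul_zero] at hκ0
    exact hκ0 rfl
  have hD2Q0 : D₂ Q ≠ 0 := by
    intro h0
    rw [hκ2, h0, mul_zero] at hκ0
    exact hκ0 rfl
  have hκinvC : κ⁻¹ ∈ C := C.inv_mem hκC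
  -- eigen-relation for φ
  have hexφ : ∀ c, ∃ m : ℕ, m < p ∧ κ⁻¹ = (m : L) ∧ ∃ e ∈ C, φ c = e * (P + lam c) ^ m := by
    intro c
    have hDt : D₁ (P + lam c) = D₁ P := by rw [map_add, hD1C _ (hlamC c), add_zero]
    have hrel : D₁ (φ c) * (P + lam c) = κ⁻¹ * φ c * D₁ (P + lam c) := by
      rw [hDt]
      have e1 := hφP c
      rw [inv_mul_eq_div, div_mul_eq_mul_div, eq_div_iff hκ0]
      calc D₁ (φ c) * (P + lam c) * κ = D₁ (φ c) * (P + lam c) * (A * D₁ P) := by rw [hκdef]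
        _ = (D₁ (φ c) * A * (P + lam c)) * D₁ P := by ring
        _ = φ c * D₁ P := by rw [← e1]
    exact eig1 (P + lam c) (E₁.add_mem hPE (hlamE1 c)) (φ c) (hφ c).1 (by rw [hDt]; exact hD1P0)
      (hφ0 c) _ hκinvC hrel
  have hexγ : ∀ c, ∃ m : ℕ, m < p ∧ κ⁻¹ = (m : L) ∧ ∃ e ∈ C, γ c = e * (Q - lam c) ^ m := by
    intro c
    have hDt : D₂ (Q - lam c) = D₂ Q := by rw [map_sub, hD2C _ (hlamC c), sub_zero]
    have hrel : D₂ (γ c) * (Q - lam c) = κ⁻¹ * γ c * D₂ (Q - lam c) := by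
      rw [hDt]
      have e1 := hγQ c
      rw [inv_mul_eq_div, div_mul_eq_mul_div, eq_div_iff hκ0]
      calc D₂ (γ c) * (Q - lam c) * κ = D₂ (γ c) * (Q - lam c) * (B * D₂ Q) := by rw [hκ2]
        _ = (D₂ (γ c) * B * (Q - lam c)) * D₂ Q := by ring
        _ = γ c * D₂ Q := by rw [← e1]
    exact eig2 (Q - lam c) (E₂.sub_mem hQE (hlamE2 c)) (γ c) (hγ c).1 (by rw [hDt]; exact hD2Q0)
      (hγ0 c) _ hκinvC hrel
  -- the common exponent
  obtain ⟨m, hmp, hκm, e₀, he₀C, he₀⟩ := hexφ c0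
  have huniq : ∀ m' : ℕ, m' < p → κ⁻¹ = (m' : L) → m' = m := by
    intro m' hm' hk'
    have h2 : ((m' : ℕ) : L) = ((m : ℕ) : L) := hk'.symm.trans hκm
    rw [CharP.natCast_eq_natCast L p] at h2
    exact Nat.ModEq.eq_of_lt_of_lt h2 hm' hmp
  have hm0 : 0 < m := by
    rcases Nat.eq_zero_or_pos m with h0 | hpos
    · exfalso
      rw [h0, pow_zero, mul_one] at he₀
      exact (hφ c0).2 (he₀ ▸ he₀C)
    · exact hpos
  have hmA : (m : L) * (A * D₁ P) = 1 := by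
    rw [← hκm, ← hκdef, inv_mul_cancel₀ hκ0]
  have hmB : (m : L) * (B * D₂ Q) = 1 := by
    rw [← hκm, ← hκ2, inv_mul_cancel₀ hκ0]
  refine ⟨m, hm0, hmp, P, hPE, Q, hQE, fun hPC => hD1P0 (hD1C P hPC),
    fun hQC => hD2Q0 (hD2C Q hQC), lam, hlamC, hlam0, hlam1, hlaminj, ?_, ?_, ?_⟩
  · intro c
    obtain ⟨m', hm', hk', e, heC, he⟩ := hexφ c
    rw [huniq m' hm' hk'] at he
    exact ⟨e, heC, he⟩
  · intro c
    obtain ⟨m', hm', hk', e, heC, he⟩ := hexγ c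
    rw [huniq m' hm' hk'] at he
    exact ⟨e, heC, he⟩
  · -- h
    have hSM : P + Q ∈ M := M.add_mem (h1M hPE) (h2M hQE)
    have hSm0 : (P + Q) ^ m ≠ 0 := pow_ne_zero _ hS0
    have hD1h : D₁ h * (A * (P + Q)) = h := by
      have := hS1
      rw [hX] at this
      field_simp at this
      linear_combination this
    have hD2h : D₂ h * (B * (P + Q)) = h := by
      have := hS2
      rw [hY] at this
      field_simp at this
      linear_combination this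
    have hpow : (P + Q) ^ m = (P + Q) ^ (m - 1) * (P + Q) := by
      rw [← pow_succ, Nat.sub_add_cancel hm0]
    refine ⟨h / (P + Q) ^ m, ?_, by field_simp⟩
    apply hM _ (M.div_mem hhM (M.pow_mem hSM m))
    · rw [Derivation.leibniz_div, Derivation.leibniz_pow, map_add, hD1Q, add_zero]
      simp only [smul_eq_mul, nsmul_eq_mul]
      have : (P + Q) ^ m * D₁ h - h * (↑m * ((P + Q) ^ (m - 1) * D₁ P)) = 0 := by
        rw [hpow]
        linear_combination (-(P + Q) ^ (m - 1) * D₁ h * (P + Q)) * hmA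
          + (↑m * (P + Q) ^ (m - 1) * D₁ P) * hD1h
      rw [this, mul_zero]
    · rw [Derivation.leibniz_div, Derivation.leibniz_pow, map_add, hD2P, zero_add]
      simp only [smul_eq_mul, nsmul_eq_mul]
      have : (P + Q) ^ m * D₂ h - h * (↑m * ((P + Q) ^ (m - 1) * D₂ Q)) = 0 := by
        rw [hpow]
        linear_combination (-(P + Q) ^ (m - 1) * D₂ h * (P + Q)) * hmB
          + (↑m * (P + Q) ^ (m - 1) * D₂ Q) * hD2h
      rw [this, mul_zero]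

/-- **(LL), algebraic core**, with globally commuting derivations. -/
theorem line_lemma_core (p : ℕ) [Fact p.Prime] [CharP L p]
    (C E₁ E₂ M : Subfield L) (hC1 : C ≤ E₁) (hC2 : C ≤ E₂) (h1M : E₁ ≤ M) (h2M : E₂ ≤ M)
    (D₁ D₂ : Derivation ℤ L L)
    (hE1 : ∀ a ∈ E₁, D₂ a = 0 ∧ D₁ a ∈ E₁) (hE2 : ∀ a ∈ E₂, D₁ a = 0 ∧ D₂ a ∈ E₂)
    (hk1 : ∀ a ∈ E₁, D₁ a = 0 → a ∈ C) (hk2 : ∀ a ∈ E₂, D₂ a = 0 → a ∈ C)
    (hM : ∀ a ∈ M, D₁ a = 0 → D₂ a = 0 → a ∈ C)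
    (hcomm : ∀ a, D₁ (D₂ a) = D₂ (D₁ a))
    (eig1 : ∀ t ∈ E₁, ∀ w ∈ E₁, D₁ t ≠ 0 → w ≠ 0 → ∀ κ ∈ C, D₁ w * t = κ * w * D₁ t →
      ∃ m : ℕ, m < p ∧ κ = (m : L) ∧ ∃ e ∈ C, w = e * t ^ m)
    (eig2 : ∀ t ∈ E₂, ∀ w ∈ E₂, D₂ t ≠ 0 → w ≠ 0 → ∀ κ ∈ C, D₂ w * t = κ * w * D₂ t →
      ∃ m : ℕ, m < p ∧ κ = (m : L) ∧ ∃ e ∈ C, w = e * t ^ m)
    {ι : Type*} [Infinite ι] (c0 c1 : ι) (hc : c0 ≠ c1)
    (φ γ : ι → L) (h : L)
    (hφ : ∀ c, φ c ∈ E₁ ∧ φ c ∉ C) (hγ : ∀ c, γ c ∈ E₂ ∧ γ c ∉ C) (hhM : h ∈ M) (hh0 : h ≠ 0)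
    (hφinj : ∀ c c', φ c / φ c' ∈ C → c = c') (hγinj : ∀ c c', γ c / γ c' ∈ C → c = c')
    (hJ : ∀ c, D₁ (φ c) * D₂ (γ c) * h = φ c * D₂ (γ c) * D₁ h + D₁ (φ c) * γ c * D₂ h) :
    ∃ m : ℕ, 0 < m ∧ m < p ∧ ∃ P ∈ E₁, ∃ Q ∈ E₂, P ∉ C ∧ Q ∉ C ∧
      ∃ lam : ι → L, (∀ c, lam c ∈ C) ∧ lam c0 = 0 ∧ lam c1 = 1 ∧ Function.Injective lam ∧
        (∀ c, ∃ e ∈ C, φ c = e * (P + lam c) ^ m) ∧
        (∀ c, ∃ e ∈ C, γ c = e * (Q - lam c) ^ m) ∧
        ∃ e ∈ C, h = e * (P + Q) ^ m :=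
  line_lemma_core' p C E₁ E₂ M hC1 hC2 h1M h2M D₁ D₂ hE1 hE2 hk1 hk2 hM eig1 eig2 c0 c1 hc φ γ h
    (hcomm h) hφ hγ hhM hh0 hφinj hγinj hJ

end Crest.Agent.Helper71.MK
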